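import Vale.Agent.P037.Core

namespace Vale.Agent.P037

variable {L k t : ℕ}

/-- a weak copy: keys weakly increasing, entries as in the complement of the identity -/
structure WCopy (M : Vx L k t → Vx L k t → Prop) (ρ γ : Fin k → Vx L k t) : Prop where
  mr : Monotone (fun i => key (ρ i))
  mc : Monotone (fun i => key (γ i))
  ent : ∀ i l, M (ρ i) (γ l) ↔ i ≠ l

theorem WCopy.symm {ρ γ : Fin k → Vx L k t} (h : WCopy adj ρ γ) : WCopy adj γ ρ :=
  ⟨h.mc, h.mr, fun i l => by rw [adj_comm, h.ent]; exact ne_comm⟩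

theorem adj_gad_role {u v : Vx L k t} (hu : ¬ IsMain u) (h : adj u v) :
    ∃ g b ρ ρ', role g b u ρ ∧ role g (!b) v ρ' ∧ ρ ≠ ρ' :=
  (adj_of_not_main_left hu).1 h

theorem height_close {u : Vx L k t} {a a' : Fin (L + 1)} {s s' : Bool} {x y : Idx L t}
    (h1 : adj u (Sum.inl (a, s), x)) (h2 : adj u (Sum.inl (a', s'), y)) :
    a.val = a'.val ∨ a.val = a'.val + 2 ∨ a'.val = a.val + 2 := by
  by_cases hu : IsMain u
  · rcases u with ⟨⟨a0, s0⟩ | ⟨g0, b0, i⟩, z⟩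
    · simp only [adj, madj] at h1 h2
      omega
    · exact absurd hu (by simp [IsMain])
  · obtain ⟨g, b, ρ, ρ', r1, r2, -⟩ := adj_gad_role hu h1
    obtain ⟨g', b', σ, σ', r3, r4, -⟩ := adj_gad_role hu h2
    obtain ⟨rfl, rfl⟩ := role_gad_unique hu r1 r3
    simp only [role] at r2 r4
    rcases g with _ | ⟨h0, d⟩ <;> cases b <;> simp only [mrole, Bool.not_true, Bool.not_false] at r2 r4 <;>
      omega

theorem mrole_congr {g : Gad L} {b : Bool} {a : ℕ} {s : Bool} {x y ρ : ℕ}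
    (e1 : x / 2 ^ a % 2 = y / 2 ^ a % 2) (e2 : x / 2 ^ (a + 1) % 2 = y / 2 ^ (a + 1) % 2)
    (h : mrole g b a s x ρ) : mrole g b a s y ρ := by
  rcases g with _ | ⟨h0, d⟩ <;> cases b <;> simp only [mrole] at h ⊢
  · exact h
  · exact h
  · rcases h with h | h | ⟨h1, h2, h3⟩
    · exact Or.inl h
    · exact Or.inr (Or.inl h)
    · subst h1
      exact Or.inr (Or.inr ⟨rfl, e2 ▸ h2, h3⟩)
  · obtain ⟨h1, h2, h3⟩ := h
    subst h1
    exact ⟨rfl, e1 ▸ h2, h3⟩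

theorem adj_gad_congr {u : Vx L k t} (hu : ¬ IsMain u) {a : Fin (L + 1)} {s : Bool}
    {x y : Idx L t} (e1 : x.1.val / 2 ^ a.val % 2 = y.1.val / 2 ^ a.val % 2)
    (e2 : x.1.val / 2 ^ (a.val + 1) % 2 = y.1.val / 2 ^ (a.val + 1) % 2)
    (h : adj u (Sum.inl (a, s), x)) : adj u (Sum.inl (a, s), y) := by
  obtain ⟨g, b, ρ, ρ', r1, r2, r3⟩ := adj_gad_role hu h
  exact (adj_of_not_main_left hu).2 ⟨g, b, ρ, ρ', r1, mrole_congr e1 e2 r2, r3⟩

theorem adj_twin {u : Vx L k t} {a : Fin (L + 1)} {s : Bool}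
    {x y : Idx L t} (e : x.1.val / 2 ^ a.val = y.1.val / 2 ^ a.val)
    (h : adj u (Sum.inl (a, s), x)) : adj u (Sum.inl (a, s), y) := by
  have e' : x.1.val / 2 ^ (a.val + 1) = y.1.val / 2 ^ (a.val + 1) := div_eq_of_le e (by omega)
  by_cases hu : IsMain u
  · rcases u with ⟨⟨a0, s0⟩ | ⟨g0, b0, i⟩, z⟩
    · simp only [adj, madj] at h ⊢
      rcases h with ⟨h1, h2⟩ | ⟨h1, h2⟩
      · exact Or.inl ⟨h1, h2.trans e⟩
      · refine Or.inr ⟨h1, h2.trans ?_⟩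
        rw [h1]; exact e'
    · exact absurd hu (by simp [IsMain])
  · exact adj_gad_congr hu (by rw [e]) (by rw [e']) h

theorem no_three {ρ γ : Fin k → Vx L k t} (hc : WCopy adj ρ γ) {l1 l2 l3 : Fin k}
    (h12 : l1 ≠ l2) (h13 : l1 ≠ l3) (h23 : l2 ≠ l3) {a : Fin (L + 1)} {s : Bool}
    {x1 x2 x3 : Idx L t} (e1 : γ l1 = (Sum.inl (a, s), x1)) (e2 : γ l2 = (Sum.inl (a, s), x2))
    (e3 : γ l3 = (Sum.inl (a, s), x3))
    (b12 : x2.1.val / 2 ^ a.val % 2 = x1.1.val / 2 ^ a.val % 2)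
    (c12 : x2.1.val / 2 ^ (a.val + 1) % 2 = x1.1.val / 2 ^ (a.val + 1) % 2)
    (b23 : x2.1.val / 2 ^ a.val % 2 = x3.1.val / 2 ^ a.val % 2) : False := by
  have n11 : ¬ adj (ρ l1) (γ l1) := by rw [hc.ent]; simp
  have a12 : adj (ρ l1) (γ l2) := (hc.ent _ _).2 h12
  have a13 : adj (ρ l1) (γ l3) := (hc.ent _ _).2 h13
  have n22 : ¬ adj (ρ l2) (γ l2) := by rw [hc.ent]; simp
  have a23 : adj (ρ l2) (γ l3) := (hc.ent _ _).2 h23
  rw [e1] at n11
  rw [e2] at a12 n22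
  rw [e3] at a13 a23
  by_cases hu : IsMain (ρ l1)
  · apply n22
    refine adj_twin ?_ a23
    generalize ρ l1 = u at hu a12 a13
    rcases u with ⟨⟨a0, s0⟩ | ⟨g0, b0, i⟩, z⟩
    · simp only [adj, madj] at a12 a13
      rcases a12 with ⟨h1, h2⟩ | ⟨h1, h2⟩ <;> rcases a13 with ⟨h3, h4⟩ | ⟨h3, h4⟩
      · exact h4.symm.trans h2
      · omega
      · omega
      · have h5 := h4.symm.trans h2
        rw [h1, div_succ, div_succ] at h5
        omega
    · exact absurd hu (by simp [IsMain])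
  · exact n11 (adj_gad_congr hu b12 c12 a12)

/-- label of a vertex -/
def lab : Vx L k t → ℕ × Bool × ℕ × ℕ
  | (Sum.inl (a, s), x) =>
      (a.val / 2 % 2, s, x.1.val / 2 ^ a.val % 2, x.1.val / 2 ^ (a.val + 1) % 2)
  | (Sum.inr _, _) => (0, false, 0, 0)

theorem lab_mem (v : Vx L k t) : lab v ∈
    (Finset.range 2 ×ˢ (Finset.univ : Finset Bool) ×ˢ Finset.range 2 ×ˢ Finset.range 2) := by
  rcases v with ⟨⟨a0, s0⟩ | ⟨g0, b0, i⟩, z⟩
  · simp only [lab, Finset.mem_product, Finset.mem_range, Finset.mem_univ, true_and]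
    omega
  · simp [lab]

theorem exists_third (hk : 3 ≤ k) (i j : Fin k) : ∃ l : Fin k, l ≠ i ∧ l ≠ j := by
  by_contra hcon
  push Not at hcon
  have h0 := hcon ⟨0, by omega⟩
  have h1 := hcon ⟨1, by omega⟩
  have h2 := hcon ⟨2, by omega⟩
  simp only [ne_eq, Fin.ext_iff] at h0 h1 h2
  omega

open Classical in
theorem card_main_le {ρ γ : Fin k → Vx L k t} (hc : WCopy adj ρ γ) :
    (Finset.univ.filter fun l => IsMain (γ l)).card ≤ 32 := by
  by_contra hcon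
  push Not at hcon
  have hcard : (Finset.range 2 ×ˢ (Finset.univ : Finset Bool) ×ˢ Finset.range 2 ×ˢ
      Finset.range 2).card * 2 < (Finset.univ.filter fun l => IsMain (γ l)).card := by
    simp only [Finset.card_product, Finset.card_range, Finset.card_univ, Fintype.card_bool]
    omega
  obtain ⟨y, -, hy⟩ := Finset.exists_lt_card_fiber_of_mul_lt_card_of_maps_to
    (f := fun l => lab (γ l)) (fun l _ => lab_mem (γ l)) hcard
  obtain ⟨l1, l2, l3, m1, m2, m3, h12, h13, h23⟩ := Finset.two_lt_card_iff.1 hy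
  simp only [Finset.mem_filter, Finset.mem_univ, true_and] at m1 m2 m3
  obtain ⟨m1, p1⟩ := m1
  obtain ⟨m2, p2⟩ := m2
  obtain ⟨m3, p3⟩ := m3
  have a32 : adj (ρ l3) (γ l2) := (hc.ent _ _).2 h23.symm
  have a31 : adj (ρ l3) (γ l1) := (hc.ent _ _).2 h13.symm
  have a12 : adj (ρ l1) (γ l2) := (hc.ent _ _).2 h12
  have a13 : adj (ρ l1) (γ l3) := (hc.ent _ _).2 h13
  rcases e1 : γ l1 with ⟨⟨a1, s1⟩ | ⟨g1, b1, i1⟩, x1⟩
  swap
  · rw [e1] at m1; exact m1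
  rcases e2 : γ l2 with ⟨⟨a2, s2⟩ | ⟨g2, b2, i2⟩, x2⟩
  swap
  · rw [e2] at m2; exact m2
  rcases e3 : γ l3 with ⟨⟨a3, s3⟩ | ⟨g3, b3, i3⟩, x3⟩
  swap
  · rw [e3] at m3; exact m3
  rw [e1] at p1 a31
  rw [e2] at p2 a32 a12
  rw [e3] at p3 a13
  have q12 := p1.trans p2.symm
  have q23 := p2.trans p3.symm
  simp only [lab, Prod.mk.injEq] at q12 q23
  have k12 := height_close a31 a32
  have k23 := height_close a12 a13
  have f12 : a1 = a2 := Fin.ext (by omega)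
  have f23 : a2 = a3 := Fin.ext (by omega)
  subst f12 f23
  obtain ⟨-, rfl, q1, q2⟩ := q12
  obtain ⟨-, rfl, q3, q4⟩ := q23
  exact no_three hc h12 h13 h23 e1 e2 e3 q1.symm q2.symm q3

theorem exists_three_gad (hk : 35 ≤ k) {ρ γ : Fin k → Vx L k t} (hc : WCopy adj ρ γ) :
    ∃ l1 l2 l3 : Fin k, ¬ IsMain (γ l1) ∧ ¬ IsMain (γ l2) ∧ ¬ IsMain (γ l3) ∧
      l1 ≠ l2 ∧ l1 ≠ l3 ∧ l2 ≠ l3 := by
  classical
  have h1 := card_main_le hc
  have h2 := Finset.card_filter_add_card_filter_not (s := (Finset.univ : Finset (Fin k)))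
    (fun l => IsMain (γ l))
  rw [Finset.card_univ, Fintype.card_fin] at h2
  have h3 : 2 < (Finset.univ.filter fun l => ¬ IsMain (γ l)).card := by
    have : (Finset.univ.filter fun l => IsMain (γ l)).card ≤ 32 := by convert h1
    omega
  obtain ⟨l1, l2, l3, m1, m2, m3, h12, h13, h23⟩ := Finset.two_lt_card_iff.1 h3
  simp only [Finset.mem_filter, Finset.mem_univ, true_and] at m1 m2 m3
  exact ⟨l1, l2, l3, m1, m2, m3, h12, h13, h23⟩

/-- all vertices of a copy have roles in one gadget -/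
theorem exists_roles (hk : 35 ≤ k) {ρ γ : Fin k → Vx L k t} (hc : WCopy adj ρ γ) :
    ∃ g b, (∀ i, ∃ a, role g b (ρ i) a) ∧ (∀ l, ∃ a, role g (!b) (γ l) a) := by
  obtain ⟨l1, l2, l3, m1, m2, m3, h12, h13, h23⟩ := exists_three_gad hk hc
  obtain ⟨i1, i2, i3, n1, n2, n3, k12, k13, k23⟩ := exists_three_gad hk hc.symm
  -- a gadget column adjacent to a gadget row in `(g,b)` lies in `(g, !b)`
  have step : ∀ (u v : Vx L k t) (g : Gad L) (b : Bool) (a : ℕ), ¬ IsMain u → role g b u a →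
      adj u v → ∃ a', role g (!b) v a' := by
    intro u v g b a hu hr huv
    obtain ⟨g', b', σ, σ', r1, r2, -⟩ := adj_gad_role hu huv
    obtain ⟨rfl, rfl⟩ := role_gad_unique hu hr r1
    exact ⟨σ', r2⟩
  -- two gadget columns different from `i1`
  obtain ⟨p, q, mp, mq, hpq, hp, hq⟩ : ∃ p q : Fin k, ¬ IsMain (γ p) ∧ ¬ IsMain (γ q) ∧ p ≠ q ∧
      i1 ≠ p ∧ i1 ≠ q := by
    by_cases e1 : i1 = l1
    · exact ⟨l2, l3, m2, m3, h23, e1 ▸ h12, e1 ▸ h13⟩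
    · by_cases e2 : i1 = l2
      · exact ⟨l1, l3, m1, m3, h13, e1, e2 ▸ h23⟩
      · exact ⟨l1, l2, m1, m2, h12, e1, e2⟩
  obtain ⟨g, b, σ, σ', r1, r2, -⟩ := adj_gad_role n1 ((hc.ent _ _).2 hp)
  obtain ⟨τ', r3⟩ := step _ _ g b σ n1 r1 ((hc.ent _ _).2 hq)
  have hrows : ∀ i, ∃ a, role g b (ρ i) a := by
    intro i
    by_cases e : i = p
    · have : adj (γ q) (ρ i) := adj_symm ((hc.ent _ _).2 (e ▸ hpq))
      simpa using step _ _ g (!b) τ' mq r3 this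
    · have : adj (γ p) (ρ i) := adj_symm ((hc.ent _ _).2 e)
      simpa using step _ _ g (!b) σ' mp r2 this
  refine ⟨g, b, hrows, fun l => ?_⟩
  by_cases e : i1 = l
  · obtain ⟨a, ha⟩ := hrows i2
    exact step _ _ g b a n2 ha ((hc.ent _ _).2 (e ▸ k12.symm))
  · exact step _ _ g b σ n1 r1 ((hc.ent _ _).2 e)

end Vale.Agent.P037
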