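import Vale.Agent.P037.Analysis

namespace Vale.Agent.P037

variable {L k t : ℕ}

theorem surj_of_inj {τ : Fin k → ℕ} (hlt : ∀ i, τ i < k) (hinj : Function.Injective τ)
    {a : ℕ} (ha : a < k) : ∃ i, τ i = a := by
  let f : Fin k → Fin k := fun i => ⟨τ i, hlt i⟩
  have hf : Function.Injective f := fun i j h => hinj (by simpa [f, Fin.ext_iff] using h)
  obtain ⟨i, hi⟩ := (Finite.injective_iff_surjective.1 hf) ⟨a, ha⟩
  exact ⟨i, by simpa [f, Fin.ext_iff] using hi⟩

theorem lt_of_key_lt {ρ : Fin k → Vx L k t} (h : Monotone (fun i => key (ρ i))) {i j : Fin k}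
    (hlt : key (ρ i) < key (ρ j)) : i < j := by
  by_contra hcon
  exact absurd (h (not_lt.1 hcon)) (not_le.2 hlt)

theorem isMain_cases {v : Vx L k t} (h : IsMain v) : ∃ a s x, v = (Sum.inl (a, s), x) := by
  rcases v with ⟨⟨a0, s0⟩ | ⟨g0, b0, i⟩, z⟩
  · exact ⟨a0, s0, z, rfl⟩
  · exact absurd h (by simp [IsMain])

theorem rule_case (hk : 35 ≤ k) {ρ γ : Fin k → Vx L k t} (hc : WCopy adj ρ γ) {h : Fin L}
    {d : Fin 2} {α β : Fin k → ℕ} (hα : ∀ i, role (some (h, d)) false (ρ i) (α i))
    (hβ : ∀ l, role (some (h, d)) true (γ l) (β l)) : False := by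
  classical
  have ent : ∀ i l, ¬ (IsMain (ρ i) ∧ IsMain (γ l)) → (i ≠ l ↔ α i ≠ β l) := by
    intro i l hn
    rw [← hc.ent, adj_iff_role hn (hα i) (hβ l)]
  have αg : ∀ i, ¬ IsMain (ρ i) → 3 ≤ α i := fun i hi => role_act hi (hα i)
  have βg : ∀ l, ¬ IsMain (γ l) → β l ≠ 1 := fun l hl => role_act hl (hβ l)
  have βm : ∀ l, IsMain (γ l) → β l = 1 := fun l hl => by
    have := role_not_act hl (hβ l)
    simpa [act] using this
  have diag : ∀ i, ¬ (IsMain (ρ i) ∧ IsMain (γ i)) → α i = β i := by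
    intro i hn
    by_contra hne
    exact (ent i i hn).2 hne rfl
  have rowmain : ∀ l, IsMain (γ l) → IsMain (ρ l) := by
    intro l hl
    by_contra hn
    have h1 := diag l (fun hh => hn hh.1)
    have h2 := αg l hn
    have h3 := βm l hl
    omega
  -- description of main columns
  have colm : ∀ l, IsMain (γ l) → ∃ a s y, γ l = (Sum.inl (a, s), y) ∧ a.val = h.val + 1 ∧
      y.1.val / 2 ^ (h.val + 1) % 2 = d.val := by
    intro l hl
    obtain ⟨a, s, y, e⟩ := isMain_cases hl
    have := hβ l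
    rw [e] at this
    simp only [role, mrole] at this
    exact ⟨a, s, y, e, this.1, this.2.1⟩
  have uniq : ∀ l l', IsMain (γ l) → IsMain (γ l') → l = l' := by
    intro l l' hl hl'
    by_contra hne
    have third : ∃ i, i ≠ l ∧ i ≠ l' ∧ IsMain (ρ i) := by
      by_contra hcon
      push Not at hcon
      have hmaps : Set.MapsTo α ((Finset.univ.erase l).erase l' : Finset (Fin k))
          (Finset.Ico 3 k : Finset ℕ) := by
        intro i hi
        simp only [Finset.coe_erase, Finset.coe_univ, Set.mem_sdiff, Set.mem_univ,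
          Set.mem_singleton_iff, true_and] at hi
        simp only [Finset.coe_Ico, Set.mem_Ico]
        exact ⟨αg i (hcon i hi.1 hi.2), role_lt (by omega) (hα i)⟩
      have hinj : Set.InjOn α ((Finset.univ.erase l).erase l' : Finset (Fin k)) := by
        intro i hi j hj hij
        simp only [Finset.coe_erase, Finset.coe_univ, Set.mem_sdiff, Set.mem_univ,
          Set.mem_singleton_iff, true_and] at hi hj
        by_contra hne'
        have h1 := diag j (fun hh => hcon j hj.1 hj.2 hh.1)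
        have h2 := (ent i j (fun hh => hcon i hi.1 hi.2 hh.1)).1 hne'
        omega
      have := Finset.card_le_card_of_injOn α hmaps hinj
      rw [Finset.card_erase_of_mem (by simp [Ne.symm hne]), Finset.card_erase_of_mem (by simp),
        Finset.card_univ, Fintype.card_fin, Nat.card_Ico] at this
      omega
    obtain ⟨i, hil, hil', hi⟩ := third
    obtain ⟨a, s, y, e, ea, eb⟩ := colm l hl
    obtain ⟨a', s', y', e', ea', eb'⟩ := colm l' hl'
    obtain ⟨a0, s0, x0, e0⟩ := isMain_cases hi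
    obtain ⟨a1, s1, x1, e1⟩ := isMain_cases (rowmain l hl)
    have j1 := (hc.ent i l).2 hil
    have j2 := (hc.ent i l').2 hil'
    have j3 := (hc.ent l l').2 hne
    have j4 : ¬ adj (ρ l) (γ l) := by rw [hc.ent]; simp
    rw [e0, e] at j1
    rw [e0, e'] at j2
    rw [e1, e'] at j3
    rw [e1, e] at j4
    simp only [adj, madj, ea, ea'] at j1 j2 j3 j4
    have hy : y.1.val / 2 ^ (h.val + 1) = y'.1.val / 2 ^ (h.val + 1) := by
      rcases j1 with ⟨p1, p2⟩ | ⟨p1, p2⟩ <;> rcases j2 with ⟨p3, p4⟩ | ⟨p3, p4⟩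
      · exact p2.symm.trans p4
      · omega
      · omega
      · have p5 := p2.symm.trans p4
        rw [p1, div_succ _ (h.val + 1), div_succ _ (h.val + 1)] at p5
        omega
    apply j4
    rcases j3 with ⟨p1, p2⟩ | ⟨p1, p2⟩
    · exact Or.inl ⟨p1, p2.trans hy.symm⟩
    · refine Or.inr ⟨p1, p2.trans ?_⟩
      rw [p1]
      exact div_eq_of_le hy.symm (by omega)
  have βinj : Function.Injective β := by
    intro l l' hll
    by_contra hne
    by_cases hl : IsMain (γ l)
    · by_cases hl' : IsMain (γ l')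
      · exact hne (uniq l l' hl hl')
      · have := βm l hl
        have := βg l' hl'
        omega
    · by_cases hl' : IsMain (γ l')
      · have := βm l' hl'
        have := βg l hl
        omega
      · have h1 := diag l (fun hh => hl hh.2)
        have h2 := (ent l l' (fun hh => hl' hh.2)).1 hne
        omega
  have βlt : ∀ l, β l < k := fun l => role_lt (by omega) (hβ l)
  obtain ⟨p0, hp0⟩ := surj_of_inj βlt βinj (a := 0) (by omega)
  obtain ⟨p1, hp1⟩ := surj_of_inj βlt βinj (a := 1) (by omega)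
  obtain ⟨p2, hp2⟩ := surj_of_inj βlt βinj (a := 2) (by omega)
  have g0 : ¬ IsMain (γ p0) := fun hh => by have := βm p0 hh; omega
  have g2 : ¬ IsMain (γ p2) := fun hh => by have := βm p2 hh; omega
  have m1 : IsMain (γ p1) := by
    by_contra hh
    exact βg p1 hh hp1
  have a0 : α p0 = 0 := (diag p0 (fun hh => g0 hh.2)).trans hp0
  have a2 : α p2 = 2 := (diag p2 (fun hh => g2 hh.2)).trans hp2
  have r0 : IsMain (ρ p0) := by
    by_contra hh
    have := αg p0 hh
    omega
  have r2 : IsMain (ρ p2) := by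
    by_contra hh
    have := αg p2 hh
    omega
  have r1 : IsMain (ρ p1) := rowmain p1 m1
  have lt01 : p0 < p1 := lt_of_key_lt hc.mc
    (key_lt_of_role (fun hh => g0 hh.1) (hβ p0) (hβ p1) (by omega))
  have lt12 : p1 < p2 := lt_of_key_lt hc.mc
    (key_lt_of_role (fun hh => g2 hh.2) (hβ p1) (hβ p2) (by omega))
  have n10 : α p1 ≠ 0 := by
    have := (ent p1 p0 (fun hh => g0 hh.2)).1 lt01.ne'
    omega
  have n12 : α p1 ≠ 2 := by
    have := (ent p1 p2 (fun hh => g2 hh.2)).1 lt12.ne
    omega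
  obtain ⟨c, s, y, e, ec, eb⟩ := colm p1 m1
  obtain ⟨b0, s0, x0, e0⟩ := isMain_cases r0
  obtain ⟨b1, s1, x1, e1⟩ := isMain_cases r1
  obtain ⟨b2, s2, x2, e2⟩ := isMain_cases r2
  have q0 := hα p0
  have q1 := hα p1
  have q2 := hα p2
  rw [e0, a0] at q0
  rw [e1] at q1
  rw [e2, a2] at q2
  simp only [role, mrole] at q0 q1 q2
  have w0 : b0.val = h.val + 2 ∧ s0 = false := by
    rcases q0 with q | q | q
    · exact ⟨q.1, q.2.1⟩
    · omega
    · omega
  have w2 : b2.val = h.val + 2 ∧ s2 = true := by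
    rcases q2 with q | q | q
    · omega
    · exact ⟨q.1, q.2.1⟩
    · omega
  have w1 : b1.val = h.val ∧ x1.1.val / 2 ^ (h.val + 1) % 2 = d.val := by
    rcases q1 with q | q | q
    · omega
    · omega
    · exact ⟨q.1, q.2.1⟩
  obtain ⟨w0, rfl⟩ := w0
  obtain ⟨w2, rfl⟩ := w2
  obtain ⟨w1, w1'⟩ := w1
  have k01 := hc.mr lt01.le
  have k12 := hc.mr lt12.le
  simp only [e0, e1, e2] at k01 k12
  have k01' := pos_le_of_key_le k01
  have k12' := pos_le_of_key_le k12
  have j0 := (hc.ent p0 p1).2 lt01.ne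
  have j2 := (hc.ent p2 p1).2 lt12.ne'
  have j1 : ¬ adj (ρ p1) (γ p1) := by rw [hc.ent]; simp
  rw [e0, e] at j0
  rw [e2, e] at j2
  rw [e1, e] at j1
  simp only [adj, madj, ec, w0, w1, w2] at j0 j1 j2
  rw [w0, w1] at k01'
  rw [w1, w2] at k12'
  have j0' : x0.1.val / 2 ^ (h.val + 2) = y.1.val / 2 ^ (h.val + 2) := by
    rcases j0 with q | q
    · omega
    · exact q.2
  have j2' : x2.1.val / 2 ^ (h.val + 2) = y.1.val / 2 ^ (h.val + 2) := by
    rcases j2 with q | q
    · omega
    · exact q.2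
  have hb := div_eq_of_between (j0'.trans j2'.symm) k01' k12'
  have hb2 : pos h.val s1 x1.1.val / 2 ^ (h.val + 2) = x1.1.val / 2 ^ (h.val + 2) :=
    div_eq_of_le (pos_div _ _ _) (by omega)
  have hb3 : x1.1.val / 2 ^ (h.val + 2) = y.1.val / 2 ^ (h.val + 2) := by
    rw [← hb2, hb, j0']
  apply j1
  left
  refine ⟨trivial, ?_⟩
  rw [div_succ _ (h.val + 1), div_succ _ (h.val + 1)] at hb3
  omega

theorem final_case (hk : 35 ≤ k) {ρ γ : Fin k → Vx L k t} (hc : WCopy adj ρ γ)
    {α β : Fin k → ℕ} (hα : ∀ i, role none false (ρ i) (α i))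
    (hβ : ∀ l, role none true (γ l) (β l)) :
    ∃ i l, (ρ i).2.1.val / 2 = (γ l).2.1.val / 2 := by
  by_contra hcon
  push Not at hcon
  have ent : ∀ i l, ¬ (IsMain (ρ i) ∧ IsMain (γ l)) → (i ≠ l ↔ α i ≠ β l) := by
    intro i l hn
    rw [← hc.ent, adj_iff_role hn (hα i) (hβ l)]
  have αg : ∀ i, ¬ IsMain (ρ i) → α i ≠ 1 := fun i hi => role_act hi (hα i)
  have βg : ∀ l, ¬ IsMain (γ l) → β l ≠ 0 := fun l hl => role_act hl (hβ l)
  have βm : ∀ l, IsMain (γ l) → β l = 0 := fun l hl => by
    have := role_not_act hl (hβ l)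
    simpa [act] using this
  have αm : ∀ l, IsMain (ρ l) → α l = 1 := fun l hl => by
    have := role_not_act hl (hα l)
    simpa [act] using this
  have diag : ∀ i, ¬ (IsMain (ρ i) ∧ IsMain (γ i)) → α i = β i := by
    intro i hn
    by_contra hne
    exact (ent i i hn).2 hne rfl
  have mm : ∀ i l, IsMain (ρ i) → IsMain (γ l) → i = l := by
    intro i l hi hl
    by_contra hne
    have j := (hc.ent i l).2 hne
    obtain ⟨a, s, x, e⟩ := isMain_cases hi
    obtain ⟨a', s', y, e'⟩ := isMain_cases hl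
    have q := hα i
    have q' := hβ l
    have q'' := hcon i l
    rw [e] at q
    rw [e'] at q'
    rw [e, e'] at j q''
    simp only [role, mrole] at q q'
    simp only [adj, madj, q.1, q'.1] at j
    apply q''
    rcases j with j | j
    · simpa using j.2
    · omega
  have αlt : ∀ l, α l < k := fun l => role_lt (by omega) (hα l)
  have βlt : ∀ l, β l < k := fun l => role_lt (by omega) (hβ l)
  have exc : ∃ l, IsMain (γ l) := by
    by_contra hno
    push Not at hno
    have βinj : Function.Injective β := by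
      intro l l' hll
      by_contra hne
      have h1 := diag l (fun hh => hno l hh.2)
      have h2 := (ent l l' (fun hh => hno l' hh.2)).1 hne
      omega
    obtain ⟨p, hp⟩ := surj_of_inj βlt βinj (a := 0) (by omega)
    exact βg p (hno p) hp
  obtain ⟨l0, hl0⟩ := exc
  have αinj : Function.Injective α := by
    intro i i' hii
    by_contra hne
    by_cases hi : IsMain (ρ i)
    · by_cases hi' : IsMain (ρ i')
      · exact hne ((mm i l0 hi hl0).trans (mm i' l0 hi' hl0).symm)
      · have := αm i hi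
        have := αg i' hi'
        omega
    · by_cases hi' : IsMain (ρ i')
      · have := αm i' hi'
        have := αg i hi
        omega
      · have h1 := diag i' (fun hh => hi' hh.1)
        have h2 := (ent i i' (fun hh => hi hh.1)).1 hne
        omega
  obtain ⟨p, hp⟩ := surj_of_inj αlt αinj (a := 0) (by omega)
  obtain ⟨i0, hi0⟩ := surj_of_inj αlt αinj (a := 1) (by omega)
  have mi0 : IsMain (ρ i0) := by
    by_contra hh
    exact αg i0 hh hi0
  have gp : ¬ IsMain (ρ p) := fun hh => by have := αm p hh; omega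
  have e := mm i0 l0 mi0 hl0
  subst e
  have lt1 : p < i0 := lt_of_key_lt hc.mr
    (key_lt_of_role (fun hh => gp hh.1) (hα p) (hα i0) (by omega))
  have gcp : ¬ IsMain (γ p) := fun hh => lt1.ne' (mm i0 p mi0 hh)
  have lt2 : i0 < p := lt_of_key_lt hc.mc
    (key_lt_of_role (fun hh => gcp hh.2) (hβ i0) (hβ p)
      (by have := βm i0 hl0; have := βg p gcp; omega))
  exact absurd lt1 (not_lt.2 lt2.le)

/-- every copy uses a rare pair -/
theorem copy_rare (hk : 35 ≤ k) {ρ γ : Fin k → Vx L k t} (hc : WCopy adj ρ γ) :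
    ∃ i l, (ρ i).2.1.val / 2 = (γ l).2.1.val / 2 := by
  have main : ∀ {ρ γ : Fin k → Vx L k t}, WCopy adj ρ γ → ∀ g : Gad L,
      (∀ i, ∃ a, role g false (ρ i) a) → (∀ l, ∃ a, role g true (γ l) a) →
      ∃ i l, (ρ i).2.1.val / 2 = (γ l).2.1.val / 2 := by
    intro ρ γ hc g h1 h2
    choose α hα using h1
    choose β hβ using h2
    rcases g with _ | ⟨h, d⟩
    · exact final_case hk hc hα hβ
    · exact (rule_case hk hc hα hβ).elim
  obtain ⟨g, b, h1, h2⟩ := exists_roles hk hc
  cases b
  · exact main hc g h1 h2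
  · obtain ⟨i, l, h⟩ := main hc.symm g h2 h1
    exact ⟨l, i, h.symm⟩

end Vale.Agent.P037
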