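import Mathlib

namespace Vale.Agent.P037

/-- gadgets: `some (h, d)` is the rule at height `h` with digit `d`, `none` the final gadget -/
abbrev Gad (L : ℕ) : Type := Option (Fin L × Fin 2)

/-- vertex classes -/
abbrev Cls (L k : ℕ) : Type := (Fin (L + 1) × Bool) ⊕ (Gad L × Bool × Fin k)

/-- index inside a class -/
abbrev Idx (L t : ℕ) : Type := Fin (2 ^ L) × Fin t

abbrev Vx (L k t : ℕ) : Type := Cls L k × Idx L t

variable {L k t : ℕ}

/-- active gadget classes -/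
def act : Gad L → Bool → ℕ → Prop
  | some _, false, i => 3 ≤ i
  | some _, true, i => i ≠ 1
  | none, false, i => i ≠ 1
  | none, true, i => i ≠ 0

/-- role relation for main vertices of height `a`, side `s`, position `x` -/
def mrole : Gad L → Bool → ℕ → Bool → ℕ → ℕ → Prop
  | some (h, d), false, a, s, x, ρ =>
      (a = h.val + 2 ∧ s = false ∧ ρ = 0) ∨ (a = h.val + 2 ∧ s = true ∧ ρ = 2) ∨
      (a = h.val ∧ x / 2 ^ (h.val + 1) % 2 = d.val ∧ ρ = 1)
  | some (h, d), true, a, _, x, ρ => a = h.val + 1 ∧ x / 2 ^ (h.val + 1) % 2 = d.val ∧ ρ = 1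
  | none, false, a, _, _, ρ => a = 0 ∧ ρ = 1
  | none, true, a, _, _, ρ => a = 1 ∧ ρ = 0

/-- role relation -/
def role (g : Gad L) (b : Bool) : Vx L k t → ℕ → Prop
  | (Sum.inl (a, s), x), ρ => mrole g b a.val s x.1.val ρ
  | (Sum.inr (g', b', i), _), ρ => g' = g ∧ b' = b ∧ act g b i.val ∧ ρ = i.val

def IsMain : Vx L k t → Prop
  | (Sum.inl _, _) => True
  | (Sum.inr _, _) => False

/-- main-main adjacency -/
def madj (a a' x y : ℕ) : Prop :=
  (a' = a + 1 ∧ x / 2 ^ a' = y / 2 ^ a') ∨ (a = a' + 1 ∧ x / 2 ^ a = y / 2 ^ a)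

/-- adjacency through a gadget -/
def gadj (v w : Vx L k t) : Prop :=
  ∃ g b ρ ρ', role g b v ρ ∧ role g (!b) w ρ' ∧ ρ ≠ ρ'

def adj : Vx L k t → Vx L k t → Prop
  | (Sum.inl (a, _), x), (Sum.inl (a', _), y) => madj a.val a'.val x.1.val y.1.val
  | v, w => gadj v w

def pos (a : ℕ) (s : Bool) (x : ℕ) : ℕ :=
  if s then x / 2 ^ a * 2 ^ a + (2 ^ a - 1) else x / 2 ^ a * 2 ^ a

def key : Vx L k t → ℕ ×ₗ ℕ ×ₗ ℕ
  | (Sum.inl (a, s), x) =>
      toLex (1, toLex (pos a.val s x.1.val, if s then L + 1 + a.val else L - a.val))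
  | (Sum.inr (_, _, i), _) => toLex (if i.val = 0 then 0 else i.val + 1, toLex (0, 0))

theorem madj_symm {a a' x y : ℕ} (h : madj a a' x y) : madj a' a y x := by
  unfold madj at *
  rcases h with ⟨h1, h2⟩ | ⟨h1, h2⟩
  · exact Or.inr ⟨h1, h2.symm⟩
  · exact Or.inl ⟨h1, h2.symm⟩

theorem gadj_symm {v w : Vx L k t} (h : gadj v w) : gadj w v := by
  obtain ⟨g, b, ρ, ρ', h1, h2, h3⟩ := h
  exact ⟨g, !b, ρ', ρ, h2, by simpa using h1, h3.symm⟩

theorem adj_symm {v w : Vx L k t} (h : adj v w) : adj w v := by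
  rcases v with ⟨⟨a, s⟩ | ⟨g, b, i⟩, x⟩ <;> rcases w with ⟨⟨a', s'⟩ | ⟨g', b', i'⟩, y⟩
  · exact madj_symm h
  · exact gadj_symm h
  · exact gadj_symm h
  · exact gadj_symm h

theorem adj_comm {v w : Vx L k t} : adj v w ↔ adj w v := ⟨adj_symm, adj_symm⟩

theorem adj_of_not_main_left {v w : Vx L k t} (hv : ¬ IsMain v) : adj v w ↔ gadj v w := by
  rcases v with ⟨⟨a, s⟩ | ⟨g, b, i⟩, x⟩ <;> rcases w with ⟨⟨a', s'⟩ | ⟨g', b', i'⟩, y⟩
  · exact absurd trivial hv
  · exact Iff.rfl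
  · exact Iff.rfl
  · exact Iff.rfl

theorem mrole_unique {g : Gad L} {b : Bool} {a : ℕ} {s : Bool} {x ρ ρ' : ℕ}
    (h : mrole g b a s x ρ) (h' : mrole g b a s x ρ') : ρ = ρ' := by
  rcases g with _ | ⟨h0, d⟩ <;> cases b <;> cases s <;> simp only [mrole] at h h' <;> grind

theorem role_unique {g : Gad L} {b : Bool} {v : Vx L k t} {ρ ρ' : ℕ}
    (h : role g b v ρ) (h' : role g b v ρ') : ρ = ρ' := by
  rcases v with ⟨⟨a, s⟩ | ⟨g', b', i⟩, x⟩
  · exact mrole_unique h h'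
  · simp only [role] at h h'
    omega

/-- a gadget vertex has roles only in its own gadget half -/
theorem role_gad_unique {g g' : Gad L} {b b' : Bool} {v : Vx L k t} {ρ ρ' : ℕ}
    (hv : ¬ IsMain v) (h : role g b v ρ) (h' : role g' b' v ρ') : g = g' ∧ b = b' := by
  rcases v with ⟨⟨a, s⟩ | ⟨g0, b0, i⟩, x⟩
  · exact absurd trivial hv
  · simp only [role] at h h'
    exact ⟨h.1.symm.trans h'.1, h.2.1.symm.trans h'.2.1⟩

theorem adj_iff_role_left {g : Gad L} {b : Bool} {v w : Vx L k t} {ρ ρ' : ℕ}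
    (hv : ¬ IsMain v) (h : role g b v ρ) (h' : role g (!b) w ρ') : adj v w ↔ ρ ≠ ρ' := by
  rw [adj_of_not_main_left hv]
  constructor
  · rintro ⟨g1, b1, σ, σ', h1, h2, h3⟩
    obtain ⟨rfl, rfl⟩ := role_gad_unique hv h h1
    rw [role_unique h h1, role_unique h' h2]
    exact h3
  · intro hne
    exact ⟨g, b, ρ, ρ', h, h', hne⟩

theorem adj_iff_role {g : Gad L} {b : Bool} {v w : Vx L k t} {ρ ρ' : ℕ}
    (hvw : ¬ (IsMain v ∧ IsMain w)) (h : role g b v ρ) (h' : role g (!b) w ρ') :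
    adj v w ↔ ρ ≠ ρ' := by
  by_cases hv : IsMain v
  · have hw : ¬ IsMain w := fun hw => hvw ⟨hv, hw⟩
    rw [adj_comm, adj_iff_role_left hw h' (by simpa using h)]
    exact ne_comm
  · exact adj_iff_role_left hv h h'

theorem role_lt {g : Gad L} {b : Bool} {v : Vx L k t} {ρ : ℕ} (hk : 3 ≤ k)
    (h : role g b v ρ) : ρ < k := by
  rcases v with ⟨⟨a, s⟩ | ⟨g0, b0, i⟩, x⟩
  · simp only [role] at h
    rcases g with _ | ⟨h0, d⟩ <;> cases b <;> simp only [mrole] at h <;> omega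
  · simp only [role] at h
    have := i.2
    omega

theorem role_act {g : Gad L} {b : Bool} {v : Vx L k t} {ρ : ℕ} (hv : ¬ IsMain v)
    (h : role g b v ρ) : act g b ρ := by
  rcases v with ⟨⟨a, s⟩ | ⟨g0, b0, i⟩, x⟩
  · exact absurd trivial hv
  · simp only [role] at h
    rw [h.2.2.2]; exact h.2.2.1

theorem role_not_act {g : Gad L} {b : Bool} {v : Vx L k t} {ρ : ℕ} (hv : IsMain v)
    (h : role g b v ρ) : ¬ act g b ρ := by
  rcases v with ⟨⟨a, s⟩ | ⟨g0, b0, i⟩, x⟩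
  · simp only [role] at h
    rcases g with _ | ⟨h0, d⟩ <;> cases b <;> simp only [mrole, act] at h ⊢ <;> omega
  · exact absurd hv (by simp [IsMain])

theorem key_lt_of_role {g : Gad L} {b : Bool} {v w : Vx L k t} {ρ ρ' : ℕ}
    (hvw : ¬ (IsMain v ∧ IsMain w)) (h : role g b v ρ) (h' : role g b w ρ') (hlt : ρ < ρ') :
    key v < key w := by
  rcases v with ⟨⟨a, s⟩ | ⟨g1, b1, i⟩, x⟩ <;> rcases w with ⟨⟨a', s'⟩ | ⟨g', b', i'⟩, y⟩
  · exact absurd ⟨trivial, trivial⟩ hvw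
  · simp only [role] at h h'
    simp only [key, Prod.Lex.toLex_lt_toLex]
    left
    split_ifs <;> omega
  · simp only [role] at h h'
    simp only [key, Prod.Lex.toLex_lt_toLex]
    left
    have h2 := h.2.2.1
    rcases g with _ | ⟨h0, d⟩ <;> cases b <;> simp only [mrole, act] at h' h2 <;>
      split_ifs <;> omega
  · simp only [role] at h h'
    simp only [key, Prod.Lex.toLex_lt_toLex]
    left
    split_ifs <;> omega

theorem div_succ (x a : ℕ) : x / 2 ^ (a + 1) = x / 2 ^ a / 2 := by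
  rw [pow_succ, Nat.div_div_eq_div_mul]

theorem div_eq_of_le {x y a a' : ℕ} (h : x / 2 ^ a = y / 2 ^ a) (hle : a ≤ a') :
    x / 2 ^ a' = y / 2 ^ a' := by
  induction a', hle using Nat.le_induction with
  | base => exact h
  | succ n _ ih => rw [div_succ, div_succ, ih]

theorem pos_div (a : ℕ) (s : Bool) (x : ℕ) : pos a s x / 2 ^ a = x / 2 ^ a := by
  have hp : 0 < 2 ^ a := by positivity
  unfold pos
  split_ifs
  · rw [add_comm, Nat.add_mul_div_right _ _ hp, Nat.div_eq_of_lt (by omega), zero_add]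
  · rw [Nat.mul_div_cancel _ hp]

theorem pos_false_le {a y z : ℕ} (h : z / 2 ^ a = y / 2 ^ a) : pos a false y ≤ z := by
  simp only [pos, Bool.false_eq_true, if_false]
  rw [← h]
  exact Nat.div_mul_le_self _ _

theorem le_pos_true {a y z : ℕ} (h : z / 2 ^ a = y / 2 ^ a) : z ≤ pos a true y := by
  have hp : 0 < 2 ^ a := by positivity
  simp only [pos, if_true]
  rw [← h]
  have h1 := Nat.div_add_mod z (2 ^ a)
  have h2 := Nat.mod_lt z hp
  rw [mul_comm] at h1
  omega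

theorem div_eq_of_between {a y y' z : ℕ} (h : y / 2 ^ a = y' / 2 ^ a)
    (h1 : pos a false y ≤ z) (h2 : z ≤ pos a true y') : z / 2 ^ a = y / 2 ^ a := by
  apply le_antisymm
  · rw [h, ← pos_div a true y']
    exact Nat.div_le_div_right h2
  · rw [← pos_div a false y]
    exact Nat.div_le_div_right h1

/-- (O1), lower half -/
theorem key_open_lt {a a' : Fin (L + 1)} {s : Bool} {x y : Idx L t} (hlt : a.val < a'.val)
    (h : x.1.val / 2 ^ a'.val = y.1.val / 2 ^ a'.val) :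
    key ((Sum.inl (a', false), y) : Vx L k t) < key ((Sum.inl (a, s), x) : Vx L k t) := by
  have h1 : pos a'.val false y.1.val ≤ pos a.val s x.1.val :=
    pos_false_le ((div_eq_of_le (pos_div _ _ _) hlt.le).trans h)
  have := a'.2
  simp only [key, Prod.Lex.toLex_lt_toLex]
  right
  refine ⟨trivial, ?_⟩
  rcases h1.lt_or_eq with h1 | h1
  · exact Or.inl h1
  · right
    refine ⟨h1, ?_⟩
    cases s <;> simp <;> omega

/-- (O1), upper half -/
theorem key_lt_close {a a' : Fin (L + 1)} {s : Bool} {x y : Idx L t} (hlt : a.val < a'.val)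
    (h : x.1.val / 2 ^ a'.val = y.1.val / 2 ^ a'.val) :
    key ((Sum.inl (a, s), x) : Vx L k t) < key ((Sum.inl (a', true), y) : Vx L k t) := by
  have h1 : pos a.val s x.1.val ≤ pos a'.val true y.1.val :=
    le_pos_true ((div_eq_of_le (pos_div _ _ _) hlt.le).trans h)
  have := a'.2
  simp only [key, Prod.Lex.toLex_lt_toLex]
  right
  refine ⟨trivial, ?_⟩
  rcases h1.lt_or_eq with h1 | h1
  · exact Or.inl h1
  · right
    refine ⟨h1, ?_⟩
    cases s <;> simp <;> omega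

theorem pos_le_of_key_le {a a' : Fin (L + 1)} {s s' : Bool} {x y : Idx L t}
    (h : key ((Sum.inl (a, s), x) : Vx L k t) ≤ key ((Sum.inl (a', s'), y) : Vx L k t)) :
    pos a.val s x.1.val ≤ pos a'.val s' y.1.val := by
  simp only [key, Prod.Lex.toLex_le_toLex] at h
  omega

end Vale.Agent.P037
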