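import Mathlib

namespace Vale.Agent.P037

/-- A binary `n × n` matrix: entries in `Fin 2 = {0, 1}`, rows and columns indexed by `Fin n`
in the natural order. -/
abbrev BinMat (n : ℕ) : Type := Matrix (Fin n) (Fin n) (Fin 2)

/-- The number `N_H(A)` of ordered copies of `H` in `A`: pairs of strictly increasing row indices
`r` and strictly increasing column indices `c` with `A (r i) (c j) = H i j` for all `i, j`. -/
noncomputable def numCopies {k n : ℕ} (H : BinMat k) (A : BinMat n) : ℕ :=
  Set.ncard {p : (Fin k → Fin n) × (Fin k → Fin n) |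
    StrictMono p.1 ∧ StrictMono p.2 ∧ ∀ i j, A (p.1 i) (p.2 j) = H i j}

/-- The number of entries in which `A` and `B` differ. -/
noncomputable def numDiff {n : ℕ} (A B : BinMat n) : ℕ :=
  Set.ncard {p : Fin n × Fin n | A p.1 p.2 ≠ B p.1 p.2}

/-- `dist_H(A)`: the least number of entries in which `A` differs from an `H`-free binary matrix,
divided by `n ^ 2`. -/
noncomputable def distFree {k n : ℕ} (H : BinMat k) (A : BinMat n) : ℝ :=
  ((sInf {d : ℕ | ∃ B : BinMat n, numCopies H B = 0 ∧ numDiff A B = d} : ℕ) : ℝ) / (n : ℝ) ^ 2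

end Vale.Agent.P037
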