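import Vale.Agent.P037.Transfer

namespace Vale.Agent.P037

theorem exp_bound {k : ℕ} (hk : 35 ≤ k) :
    ∃ a ε₀ : ℝ, 0 < a ∧ 0 < ε₀ ∧ ∀ ε : ℝ, 0 < ε → ε < ε₀ → ∀ n₀ : ℕ, ∃ n : ℕ, n₀ ≤ n ∧
      ∃ A : BinMat n, ε ≤ distFree (1 : BinMat k) A ∧
        (numCopies (1 : BinMat k) A : ℝ) ≤ Real.exp (-a / Real.sqrt ε) * (n : ℝ) ^ (2 * k) := by
  set B : ℝ := 4 * k + 2 with hB
  set D : ℝ := 2 * k + 2 with hD
  have hk' : (35 : ℝ) ≤ k := by exact_mod_cast hk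
  have hBpos : 0 < B := by linarith
  set s₀ : ℝ := 4 * B * (2 * k ^ 2 + 1) with hs₀
  have hs₀pos : 0 < s₀ := by positivity
  refine ⟨1 / (4 * B), 1 / s₀ ^ 2, by positivity, by positivity, ?_⟩
  intro ε hε hε₀ n₀
  set s : ℝ := 1 / Real.sqrt ε with hs
  have hsq : 0 < Real.sqrt ε := Real.sqrt_pos.2 hε
  have hspos : 0 < s := by positivity
  have hss : s ^ 2 = 1 / ε := by
    rw [hs, div_pow, Real.sq_sqrt hε.le, one_pow]
  have hs1 : s₀ < s := by
    have h1 : s₀ ^ 2 < s ^ 2 := by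
      rw [hss, lt_div_iff₀ hε]
      rw [lt_div_iff₀ (by positivity)] at hε₀
      linarith
    exact lt_of_pow_lt_pow_left₀ 2 hspos.le h1
  have hk2 : (0 : ℝ) ≤ (k : ℝ) ^ 2 := by positivity
  have hs2 : 4 * B ≤ s₀ := by
    rw [hs₀]
    nlinarith
  set L : ℕ := ⌊(s - D) / B⌋₊ with hLdef
  have hq : 1 ≤ (s - D) / B := by
    rw [le_div_iff₀ hBpos]
    linarith
  have hL1 : 1 ≤ L := Nat.le_floor (by exact_mod_cast hq)
  have hLle : (L : ℝ) ≤ (s - D) / B := Nat.floor_le (by linarith)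
  have hLgt : (s - D) / B < L + 1 := Nat.lt_floor_add_one _
  have hKle : B * L + D ≤ s := by
    rw [le_div_iff₀ hBpos] at hLle
    linarith
  obtain ⟨n, hn⟩ : ∃ n : ℕ, n = ((4 * k + 2) * L + 2 * k + 2) * (2 ^ L * (n₀ + 1)) := ⟨_, rfl⟩
  obtain ⟨A, hA1, hA2⟩ := core (k := k) (L := L) (t := n₀ + 1) hk hL1 (by omega) hn
  refine ⟨n, ?_, A, ?_, ?_⟩
  · rw [hn]
    have h1 : 1 ≤ (4 * k + 2) * L + 2 * k + 2 := by omega
    have h2 : 1 ≤ 2 ^ L := Nat.one_le_two_pow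
    calc n₀ ≤ 1 * (1 * (n₀ + 1)) := by omega
      _ ≤ _ := Nat.mul_le_mul h1 (Nat.mul_le_mul_right _ h2)
  · refine le_trans ?_ hA1
    have hK : (((4 * k + 2) * L + 2 * k + 2 : ℕ) : ℝ) = B * L + D := by
      push_cast
      rw [hB, hD]
      ring
    have hKpos : 0 < B * L + D := by positivity
    rw [hK, le_div_iff₀ (by positivity)]
    have h1 : (B * L + D) ^ 2 ≤ s ^ 2 := pow_le_pow_left₀ hKpos.le hKle 2
    rw [hss, le_div_iff₀ hε] at h1
    linarith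
  · have h1 : (numCopies (1 : BinMat k) A : ℝ) * 2 ^ L ≤ 2 * (k : ℝ) ^ 2 * (n : ℝ) ^ (2 * k) := by
      exact_mod_cast hA2
    have h2 : Real.exp ((L : ℝ) / 2) ≤ 2 ^ L := by
      have : Real.exp ((L : ℝ) / 2) = Real.exp (1 / 2) ^ L := by
        rw [← Real.exp_nat_mul]
        congr 1
        ring
      rw [this]
      refine pow_le_pow_left₀ (Real.exp_pos _).le ?_ _
      have h3 : Real.exp (1 / 2) ^ 2 = Real.exp 1 := by
        rw [← Real.exp_nat_mul]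
        norm_num
      have h4 := Real.exp_one_lt_d9
      refine le_of_lt (lt_of_pow_lt_pow_left₀ 2 (by norm_num) ?_)
      rw [h3]
      linarith
    have h3 : -(1 / (4 * B)) / Real.sqrt ε = -(s / (4 * B)) := by
      rw [hs]
      field_simp
    rw [h3]
    have h4 : 2 * (k : ℝ) ^ 2 ≤ (L : ℝ) / 2 - s / (4 * B) := by
      have e1 : (s - D) / B = 4 * (s / (4 * B)) - D / B := by
        field_simp
      have e2 : D / B ≤ 1 := by
        rw [div_le_one hBpos]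
        linarith
      have e3 : 2 * (k : ℝ) ^ 2 + 1 ≤ s / (4 * B) := by
        rw [le_div_iff₀ (by positivity)]
        linarith
      linarith
    have h5 : 2 * (k : ℝ) ^ 2 ≤ Real.exp (-(s / (4 * B))) * 2 ^ L := by
      calc 2 * (k : ℝ) ^ 2 ≤ Real.exp ((L : ℝ) / 2 - s / (4 * B)) := by
            have := Real.add_one_le_exp ((L : ℝ) / 2 - s / (4 * B))
            linarith
        _ = Real.exp (-(s / (4 * B))) * Real.exp ((L : ℝ) / 2) := by
            rw [← Real.exp_add]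
            congr 1
            ring
        _ ≤ _ := mul_le_mul_of_nonneg_left h2 (Real.exp_pos _).le
    have hp : (0 : ℝ) < 2 ^ L := by positivity
    have hnp : (0 : ℝ) ≤ (n : ℝ) ^ (2 * k) := by positivity
    refine le_of_mul_le_mul_right ?_ hp
    calc (numCopies (1 : BinMat k) A : ℝ) * 2 ^ L ≤ 2 * (k : ℝ) ^ 2 * (n : ℝ) ^ (2 * k) := h1
      _ ≤ (Real.exp (-(s / (4 * B))) * 2 ^ L) * (n : ℝ) ^ (2 * k) :=
          mul_le_mul_of_nonneg_right h5 hnp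
      _ = _ := by ring

theorem not_poly {k : ℕ} (hk : 35 ≤ k) :
    ¬ ∃ cH CH : ℝ, 0 < cH ∧ 0 < CH ∧ ∀ n : ℕ, 1 ≤ n → ∀ ε : ℝ, 0 < ε → ε < 1 →
      ∀ A : BinMat n, ε ≤ distFree (1 : BinMat k) A →
        cH * ε ^ CH * (n : ℝ) ^ (2 * k) ≤ (numCopies (1 : BinMat k) A : ℝ) := by
  rintro ⟨c, C, hc, hC, h⟩
  obtain ⟨a, ε₀, ha, hε₀, hexp⟩ := exp_bound hk
  have t1 := tendsto_rpow_mul_exp_neg_mul_atTop_nhds_zero (2 * C) a ha
  have e1 : ∀ᶠ x : ℝ in Filter.atTop, x ^ (2 * C) * Real.exp (-a * x) < c :=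
    t1.eventually (gt_mem_nhds hc)
  obtain ⟨x, hx1, hx2, hx3⟩ :=
    (e1.and ((Filter.eventually_gt_atTop 1).and (Filter.eventually_gt_atTop (1 / ε₀)))).exists
  have hx0 : 0 < x := by linarith
  have hε1 : 1 / x ^ 2 < 1 := by
    rw [div_lt_one (by positivity)]
    nlinarith
  have hε2 : 1 / x ^ 2 < ε₀ := by
    rw [div_lt_iff₀ hε₀] at hx3
    rw [div_lt_iff₀ (by positivity)]
    nlinarith
  obtain ⟨n, hn, A, hA1, hA2⟩ := hexp (1 / x ^ 2) (by positivity) hε2 1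
  have h1 := h n hn (1 / x ^ 2) (by positivity) hε1 A hA1
  have hsq : Real.sqrt (1 / x ^ 2) = 1 / x := by
    rw [← one_pow 2, ← div_pow, Real.sqrt_sq (by positivity), one_pow]
  rw [hsq] at hA2
  have hn0 : (0 : ℝ) < (n : ℝ) ^ (2 * k) := by
    have : (0 : ℝ) < n := by exact_mod_cast hn
    positivity
  have h2 : c * (1 / x ^ 2) ^ C ≤ Real.exp (-a / (1 / x)) :=
    le_of_mul_le_mul_right (h1.trans hA2) hn0
  have h3 : (1 / x ^ 2) ^ C = 1 / x ^ (2 * C) := by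
    rw [Real.div_rpow zero_le_one (by positivity), Real.one_rpow, Real.rpow_mul hx0.le]
    norm_num
  have h4 : -a / (1 / x) = -a * x := by field_simp
  rw [h3, h4] at h2
  have hp : 0 < x ^ (2 * C) := Real.rpow_pos_of_pos hx0 _
  rw [mul_one_div, div_le_iff₀ hp] at h2
  linarith

end Vale.Agent.P037
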