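import Vale.Agent.P037.Analysis2

namespace Vale.Agent.P037

variable {L k t : ℕ}

/-- no strictly ordered copy -/
def Free (M : Vx L k t → Vx L k t → Prop) : Prop :=
  ∀ ρ γ : Fin k → Vx L k t, StrictMono (fun i => key (ρ i)) → StrictMono (fun i => key (γ i)) →
    ¬ ∀ i l, M (ρ i) (γ l) ↔ i ≠ l

def deep : Cls L k → Prop
  | Sum.inl (a, _) => a.val < L
  | Sum.inr _ => False

open Classical in
noncomputable def vx (x u : Idx L t) (α : Cls L k) : Vx L k t := (α, if deep α then x else u)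

def Robust (M : Vx L k t → Vx L k t → Prop) (x u v : Idx L t) : Prop :=
  ∀ α β : Cls L k, ¬ (deep α ∧ deep β) → (M (vx x u α) (vx x v β) ↔ adj (vx x u α) (vx x v β))

theorem Free.flip {M : Vx L k t → Vx L k t → Prop} (h : Free M) : Free (fun a b => M b a) :=
  fun ρ γ h1 h2 h3 => h γ ρ h2 h1 (fun i l => (h3 l i).trans ne_comm)

theorem Robust.flip {M : Vx L k t → Vx L k t → Prop} {x u v : Idx L t} (h : Robust M x u v) :
    Robust (fun a b => M b a) x v u :=
  fun α β hn => (h β α (fun hh => hn ⟨hh.2, hh.1⟩)).trans adj_comm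

theorem deep_main {x u : Idx L t} {α : Cls L k} (h : deep α) : IsMain (vx x u α) := by
  rcases α with ⟨a, s⟩ | ⟨g, b, i⟩
  · trivial
  · exact absurd h (by simp [deep])

theorem vx_div (x u : Idx L t) (a : Fin (L + 1)) (s : Bool) :
    (vx x u (Sum.inl (a, s) : Cls L k)).2.1.val / 2 ^ a.val = x.1.val / 2 ^ a.val := by
  unfold vx
  split_ifs with h
  · rfl
  · have ha : a.val = L := by
      have := a.2
      simp only [deep] at h
      omega
    rw [ha, Nat.div_eq_of_lt u.1.2, Nat.div_eq_of_lt x.1.2]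

theorem vx_eq (x u : Idx L t) (α : Cls L k) : vx x u α = (α, (vx x u α).2) := rfl

theorem not_of_roles {M : Vx L k t → Vx L k t → Prop} (hF : Free M) {x u v : Idx L t}
    (hR : Robust M x u v) (g : Gad L) (ρ γ : Fin k → Cls L k)
    (h1 : ∀ i, role g false (vx x u (ρ i)) i.val) (h2 : ∀ l, role g true (vx x v (γ l)) l.val)
    (o1 : ∀ i j, i < j → IsMain (vx x u (ρ i)) → IsMain (vx x u (ρ j)) →
      key (vx x u (ρ i)) < key (vx x u (ρ j)))
    (o2 : ∀ i j, i < j → IsMain (vx x v (γ i)) → IsMain (vx x v (γ j)) →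
      key (vx x v (γ i)) < key (vx x v (γ j)))
    (mm : ∀ i l, IsMain (vx x u (ρ i)) → IsMain (vx x v (γ l)) →
      (M (vx x u (ρ i)) (vx x v (γ l)) ↔ i ≠ l)) : False := by
  refine hF (fun i => vx x u (ρ i)) (fun l => vx x v (γ l)) ?_ ?_ ?_
  · intro i j hij
    by_cases hm : IsMain (vx x u (ρ i)) ∧ IsMain (vx x u (ρ j))
    · exact o1 i j hij hm.1 hm.2
    · exact key_lt_of_role hm (h1 i) (h1 j) hij
  · intro i j hij
    by_cases hm : IsMain (vx x v (γ i)) ∧ IsMain (vx x v (γ j))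
    · exact o2 i j hij hm.1 hm.2
    · exact key_lt_of_role hm (h2 i) (h2 j) hij
  · intro i l
    by_cases hm : IsMain (vx x u (ρ i)) ∧ IsMain (vx x v (γ l))
    · exact mm i l hm.1 hm.2
    · rw [hR _ _ (fun hh => hm ⟨deep_main hh.1, deep_main hh.2⟩),
        adj_iff_role hm (h1 i) (h2 l)]
      simp [Fin.ext_iff]

theorem step_rule {M : Vx L k t → Vx L k t → Prop} (hF : Free M) {x u v : Idx L t}
    (hR : Robust M x u v) {h : ℕ} {a0 a1 a2 : Fin (L + 1)} (e0 : a0.val = h)
    (e1 : a1.val = h + 1) (e2 : a2.val = h + 2) (s s' : Bool)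
    (hyp : ∀ s, M (vx x u (Sum.inl (a2, s))) (vx x v (Sum.inl (a1, s')))) :
    M (vx x u (Sum.inl (a0, s))) (vx x v (Sum.inl (a1, s'))) := by
  by_contra hno
  have hL : h + 2 ≤ L := by have := a2.2; omega
  let g : Gad L := some (⟨h, by omega⟩, ⟨x.1.val / 2 ^ (h + 1) % 2, Nat.mod_lt _ (by omega)⟩)
  let ρ : Fin k → Cls L k := fun i =>
    if i.val = 0 then Sum.inl (a2, false) else if i.val = 1 then Sum.inl (a0, s)
    else if i.val = 2 then Sum.inl (a2, true) else Sum.inr (g, false, i)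
  let γ : Fin k → Cls L k := fun l =>
    if l.val = 1 then Sum.inl (a1, s') else Sum.inr (g, true, l)
  have d0 : (vx x u (Sum.inl (a0, s) : Cls L k)) = (Sum.inl (a0, s), x) := by
    unfold vx
    rw [if_pos (by simp only [deep]; omega)]
  have d1 : (vx x v (Sum.inl (a1, s') : Cls L k)) = (Sum.inl (a1, s'), x) := by
    unfold vx
    rw [if_pos (by simp only [deep]; omega)]
  have ρ0 : ∀ i : Fin k, i.val = 0 → ρ i = Sum.inl (a2, false) := fun i hi => by simp [ρ, hi]
  have ρ1 : ∀ i : Fin k, i.val = 1 → ρ i = Sum.inl (a0, s) := fun i hi => by simp [ρ, hi]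
  have ρ2 : ∀ i : Fin k, i.val = 2 → ρ i = Sum.inl (a2, true) := fun i hi => by simp [ρ, hi]
  have ρ3 : ∀ i : Fin k, 3 ≤ i.val → ρ i = Sum.inr (g, false, i) := fun i hi => by
    simp only [ρ]
    rw [if_neg (by omega), if_neg (by omega), if_neg (by omega)]
  have γ1 : ∀ i : Fin k, i.val = 1 → γ i = Sum.inl (a1, s') := fun i hi => by simp [γ, hi]
  have γ0 : ∀ i : Fin k, i.val ≠ 1 → γ i = Sum.inr (g, true, i) := fun i hi => by simp [γ, hi]
  have mρ : ∀ i : Fin k, IsMain (vx x u (ρ i)) → i.val = 0 ∨ i.val = 1 ∨ i.val = 2 := by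
    intro i hi
    by_contra hcon
    rw [ρ3 i (by omega)] at hi
    exact hi
  have mγ : ∀ i : Fin k, IsMain (vx x v (γ i)) → i.val = 1 := by
    intro i hi
    by_contra hcon
    rw [γ0 i hcon] at hi
    exact hi
  have k01 : key (vx x u (Sum.inl (a2, false) : Cls L k)) <
      key (vx x u (Sum.inl (a0, s) : Cls L k)) := by
    rw [d0, vx_eq x u (Sum.inl (a2, false))]
    exact key_open_lt (by omega) (vx_div _ _ _ _).symm
  have k12 : key (vx x u (Sum.inl (a0, s) : Cls L k)) <
      key (vx x u (Sum.inl (a2, true) : Cls L k)) := by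
    rw [d0, vx_eq x u (Sum.inl (a2, true))]
    exact key_lt_close (by omega) (vx_div _ _ _ _).symm
  refine not_of_roles hF hR g ρ γ ?_ ?_ ?_ ?_ ?_
  · intro i
    by_cases i0 : i.val = 0
    · rw [ρ0 i i0, vx_eq]
      simp only [role, mrole, g]
      exact Or.inl ⟨e2, trivial, i0⟩
    by_cases i1 : i.val = 1
    · rw [ρ1 i i1, d0]
      simp only [role, mrole, g]
      exact Or.inr (Or.inr ⟨e0, trivial, i1⟩)
    by_cases i2 : i.val = 2
    · rw [ρ2 i i2, vx_eq]
      simp only [role, mrole, g]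
      exact Or.inr (Or.inl ⟨e2, trivial, i2⟩)
    · rw [ρ3 i (by omega), vx_eq]
      simp only [role, act, g, true_and, and_true]
      omega
  · intro l
    by_cases l1 : l.val = 1
    · rw [γ1 l l1, d1]
      simp only [role, mrole, g]
      exact ⟨e1, trivial, l1⟩
    · rw [γ0 l l1, vx_eq]
      simp only [role, act, g, true_and, and_true]
      exact l1
  · intro i j hij hi hj
    have hij' : i.val < j.val := hij
    rcases mρ i hi with p | p | p <;> rcases mρ j hj with q | q | q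
    · omega
    · rw [ρ0 i p, ρ1 j q]; exact k01
    · rw [ρ0 i p, ρ2 j q]; exact k01.trans k12
    · omega
    · omega
    · rw [ρ1 i p, ρ2 j q]; exact k12
    · omega
    · omega
    · omega
  · intro i j hij hi hj
    have hij' : i.val < j.val := hij
    have := mγ i hi
    have := mγ j hj
    omega
  · intro i l hi hl
    have q := mγ l hl
    rw [γ1 l q]
    rcases mρ i hi with p | p | p
    · rw [ρ0 i p]
      exact iff_of_true (hyp _) (by simp only [ne_eq, Fin.ext_iff]; omega)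
    · rw [ρ1 i p]
      exact iff_of_false hno (by simp only [ne_eq, Fin.ext_iff]; omega)
    · rw [ρ2 i p]
      exact iff_of_true (hyp _) (by simp only [ne_eq, Fin.ext_iff]; omega)

theorem final_rule {M : Vx L k t → Vx L k t → Prop} (hF : Free M) {x u v : Idx L t}
    (hR : Robust M x u v) {a0 a1 : Fin (L + 1)} (e0 : a0.val = 0) (e1 : a1.val = 1)
    (hyp : M (vx x u (Sum.inl (a0, false))) (vx x v (Sum.inl (a1, false)))) : False := by
  let g : Gad L := none
  let ρ : Fin k → Cls L k := fun i =>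
    if i.val = 1 then Sum.inl (a0, false) else Sum.inr (g, false, i)
  let γ : Fin k → Cls L k := fun l =>
    if l.val = 0 then Sum.inl (a1, false) else Sum.inr (g, true, l)
  have ρ1 : ∀ i : Fin k, i.val = 1 → ρ i = Sum.inl (a0, false) := fun i hi => by simp [ρ, hi]
  have ρ0 : ∀ i : Fin k, i.val ≠ 1 → ρ i = Sum.inr (g, false, i) := fun i hi => by simp [ρ, hi]
  have γ1 : ∀ i : Fin k, i.val = 0 → γ i = Sum.inl (a1, false) := fun i hi => by simp [γ, hi]
  have γ0 : ∀ i : Fin k, i.val ≠ 0 → γ i = Sum.inr (g, true, i) := fun i hi => by simp [γ, hi]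
  have mρ : ∀ i : Fin k, IsMain (vx x u (ρ i)) → i.val = 1 := by
    intro i hi
    by_contra hcon
    rw [ρ0 i hcon] at hi
    exact hi
  have mγ : ∀ i : Fin k, IsMain (vx x v (γ i)) → i.val = 0 := by
    intro i hi
    by_contra hcon
    rw [γ0 i hcon] at hi
    exact hi
  refine not_of_roles hF hR g ρ γ ?_ ?_ ?_ ?_ ?_
  · intro i
    by_cases i1 : i.val = 1
    · rw [ρ1 i i1, vx_eq]
      simp only [role, mrole, g]
      exact ⟨e0, i1⟩
    · rw [ρ0 i i1, vx_eq]
      simp only [role, act, g, true_and, and_true]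
      exact i1
  · intro l
    by_cases l1 : l.val = 0
    · rw [γ1 l l1, vx_eq]
      simp only [role, mrole, g]
      exact ⟨e1, l1⟩
    · rw [γ0 l l1, vx_eq]
      simp only [role, act, g, true_and, and_true]
      exact l1
  · intro i j hij hi hj
    have hij' : i.val < j.val := hij
    have := mρ i hi
    have := mρ j hj
    omega
  · intro i j hij hi hj
    have hij' : i.val < j.val := hij
    have := mγ i hi
    have := mγ j hj
    omega
  · intro i l hi hl
    have q := mγ l hl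
    have p := mρ i hi
    rw [γ1 l q, ρ1 i p]
    exact iff_of_true hyp (by simp only [ne_eq, Fin.ext_iff]; omega)

theorem not_robust (hL : 1 ≤ L) {M : Vx L k t → Vx L k t → Prop} (hF : Free M)
    (x u v : Idx L t) : ¬ Robust M x u v := by
  intro hR
  have main : ∀ j h : ℕ, h + 1 + j = L → ∀ a0 a1 : Fin (L + 1), a0.val = h → a1.val = h + 1 →
      (∀ s s', M (vx x u (Sum.inl (a1, s))) (vx x v (Sum.inl (a0, s')))) ∧
      (∀ s s', M (vx x u (Sum.inl (a0, s))) (vx x v (Sum.inl (a1, s')))) := by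
    intro j
    induction j with
    | zero =>
      intro h hh a0 a1 e0 e1
      have nd : ∀ s, ¬ deep (Sum.inl (a1, s) : Cls L k) := fun s => by
        simp only [deep]; omega
      have e1' : a1.val = L := by omega
      constructor
      · intro s s'
        rw [hR _ _ (fun hh => nd s hh.1), vx_eq x u, vx_eq x v]
        simp only [adj, madj]
        right
        refine ⟨by omega, ?_⟩
        rw [e1', Nat.div_eq_of_lt (Fin.is_lt _), Nat.div_eq_of_lt (Fin.is_lt _)]
      · intro s s'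
        rw [hR _ _ (fun hh => nd s' hh.2), vx_eq x u, vx_eq x v]
        simp only [adj, madj]
        left
        refine ⟨by omega, ?_⟩
        rw [e1', Nat.div_eq_of_lt (Fin.is_lt _), Nat.div_eq_of_lt (Fin.is_lt _)]
    | succ j ih =>
      intro h hh a0 a1 e0 e1
      obtain ⟨i1, i2⟩ := ih (h + 1) (by omega) a1 ⟨h + 2, by omega⟩ e1 rfl
      constructor
      · intro s s'
        exact step_rule hF.flip hR.flip e0 e1 (a2 := ⟨h + 2, by omega⟩) rfl s' s
          (fun s'' => i2 s s'')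
      · intro s s'
        exact step_rule hF hR e0 e1 (a2 := ⟨h + 2, by omega⟩) rfl s s' (fun s'' => i1 s'' s')
  exact final_rule hF hR (a0 := ⟨0, by omega⟩) (a1 := ⟨1, by omega⟩) rfl rfl
    ((main (L - 1) 0 (by omega) ⟨0, by omega⟩ ⟨1, by omega⟩ rfl rfl).2 false false)

/-- averaging: a free relation differs from `adj` in at least `N ^ 2` places -/
theorem card_diff_ge (hL : 1 ≤ L) (ht : 1 ≤ t) {M : Vx L k t → Vx L k t → Prop} (hF : Free M) :
    (2 ^ L * t) ^ 2 ≤ Set.ncard {p : Vx L k t × Vx L k t | ¬ (M p.1 p.2 ↔ adj p.1 p.2)} := by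
  classical
  set D := {p : Vx L k t × Vx L k t | ¬ (M p.1 p.2 ↔ adj p.1 p.2)} with hD
  have hbad : ∀ ω : Idx L t × Idx L t × Idx L t, ∃ αβ : Cls L k × Cls L k,
      ¬ (deep αβ.1 ∧ deep αβ.2) ∧ (vx ω.1 ω.2.1 αβ.1, vx ω.1 ω.2.2 αβ.2) ∈ D := by
    intro ω
    have := not_robust hL hF ω.1 ω.2.1 ω.2.2
    unfold Robust at this
    push Not at this
    obtain ⟨α, β, h1, h2⟩ := this
    refine ⟨(α, β), fun hh => h1 hh.1 hh.2, ?_⟩
    simp only [hD, Set.mem_ofPred_eq]
    tauto
  choose f hf1 hf2 using hbad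
  let Φ : Idx L t × Idx L t × Idx L t → D × Idx L t := fun ω =>
    (⟨_, hf2 ω⟩, if deep (f ω).1 then ω.2.1 else if deep (f ω).2 then ω.2.2 else ω.1)
  have hΦ : Function.Injective Φ := by
    rintro ⟨x, u, v⟩ ⟨x', u', v'⟩ hh
    simp only [Φ, Prod.mk.injEq, Subtype.mk.injEq, vx] at hh
    obtain ⟨⟨⟨h1, h2⟩, h3, h4⟩, h5⟩ := hh
    have n1 := hf1 (x, u, v)
    rw [← h1] at h2 h5
    rw [← h3] at h4 h5
    by_cases c1 : deep (f (x, u, v)).1 <;> by_cases c2 : deep (f (x, u, v)).2
    · exact absurd ⟨c1, c2⟩ n1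
    · simp only [c1, c2, if_true, if_false] at h2 h4 h5
      rw [h2, h4, h5]
    · simp only [c1, c2, if_true, if_false] at h2 h4 h5
      rw [h2, h4, h5]
    · simp only [c1, c2, if_false] at h2 h4 h5
      rw [h2, h4, h5]
  have hc := Nat.card_le_card_of_injective Φ hΦ
  simp only [Nat.card_eq_fintype_card, Fintype.card_fin, Fintype.card_prod] at hc
  rw [← Nat.card_eq_fintype_card, Nat.card_coe_set_eq] at hc
  have hpos : 0 < 2 ^ L * t := by positivity
  have : (2 ^ L * t) ^ 2 * (2 ^ L * t) ≤ D.ncard * (2 ^ L * t) := by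
    calc (2 ^ L * t) ^ 2 * (2 ^ L * t) = 2 ^ L * t * (2 ^ L * t * (2 ^ L * t)) := by ring
      _ ≤ _ := hc
  exact Nat.le_of_mul_le_mul_right this hpos

end Vale.Agent.P037
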