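import Vale.Agent.P037.Robust
import Vale.Agent.P037.Defs

namespace Vale.Agent.P037

variable {L k t : ℕ}

theorem card_Cls : Fintype.card (Cls L k) = (4 * k + 2) * L + 2 * k + 2 := by
  simp only [Cls, Gad, Fintype.card_sum, Fintype.card_prod, Fintype.card_fin, Fintype.card_bool,
    Fintype.card_option]
  ring

theorem card_Vx : Fintype.card (Vx L k t) = ((4 * k + 2) * L + 2 * k + 2) * (2 ^ L * t) := by
  simp only [Vx, Idx, Fintype.card_prod, card_Cls, Fintype.card_fin]

theorem exists_sorted {n : ℕ} (hn : n = ((4 * k + 2) * L + 2 * k + 2) * (2 ^ L * t)) :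
    ∃ e : Fin n ≃ Vx L k t, Monotone (fun r => key (e r)) := by
  let e0 : Fin n ≃ Vx L k t := (Fintype.equivFinOfCardEq (card_Vx.trans hn.symm)).symm
  exact ⟨(Tuple.sort (fun r => key (e0 r))).trans e0, Tuple.monotone_sort (fun r => key (e0 r))⟩

theorem fin2_eq {a : Fin 2} {i l : Fin k} :
    a = (1 : BinMat k) i l ↔ (a = 0 ↔ i ≠ l) := by
  by_cases h : i = l
  · subst h
    rw [Matrix.one_apply_eq]
    revert a
    simp
  · rw [Matrix.one_apply_ne h]
    simp [h]

theorem fiber_card (a : ℕ) :
    (Finset.univ.filter fun w : Vx L k t => w.2.1.val / 2 = a).card ≤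
      ((4 * k + 2) * L + 2 * k + 2) * (2 * t) := by
  classical
  have h := Finset.card_le_card_of_injOn
    (s := Finset.univ.filter fun w : Vx L k t => w.2.1.val / 2 = a)
    (t := (Finset.univ : Finset (Cls L k × Fin 2 × Fin t)))
    (fun w => (w.1, ⟨w.2.1.val % 2, Nat.mod_lt _ (by omega)⟩, w.2.2)) (fun _ _ => by simp) (by
      rintro ⟨α, x, m⟩ h1 ⟨α', x', m'⟩ h2 h3
      simp only [Finset.coe_filter, Finset.mem_univ, true_and, Set.mem_ofPred_eq] at h1 h2
      simp only [Prod.mk.injEq, Fin.mk.injEq] at h3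
      obtain ⟨rfl, h4, rfl⟩ := h3
      have : x = x' := Fin.ext (by omega)
      rw [this])
  rw [Finset.card_univ, Fintype.card_prod, card_Cls, Fintype.card_prod, Fintype.card_fin,
    Fintype.card_fin] at h
  exact h

theorem card_coord_mem {n : ℕ} (l : Fin k) (T : Finset (Fin n)) :
    (Finset.univ.filter fun c : Fin k → Fin n => c l ∈ T).card = T.card * n ^ (k - 1) := by
  classical
  have : (Finset.univ.filter fun c : Fin k → Fin n => c l ∈ T) =
      Fintype.piFinset (Function.update (fun _ => Finset.univ) l T) := by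
    ext c
    simp only [Finset.mem_filter, Finset.mem_univ, true_and, Fintype.mem_piFinset]
    constructor
    · intro h j
      by_cases hj : j = l
      · subst hj; simpa using h
      · simp [Function.update_of_ne hj]
    · intro h
      simpa using h l
  rw [this, Fintype.card_piFinset, ← Finset.mul_prod_erase _ _ (Finset.mem_univ l)]
  congr 1
  · simp
  · rw [Finset.prod_congr rfl (g := fun _ => n)]
    · simp
    · intro j hj
      rw [Function.update_of_ne (Finset.ne_of_mem_erase hj)]
      simp

theorem core (hk : 35 ≤ k) (hL : 1 ≤ L) (ht : 1 ≤ t) {n : ℕ}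
    (hn : n = ((4 * k + 2) * L + 2 * k + 2) * (2 ^ L * t)) :
    ∃ A : BinMat n, 1 / (((4 * k + 2) * L + 2 * k + 2 : ℕ) : ℝ) ^ 2 ≤ distFree (1 : BinMat k) A ∧
      numCopies (1 : BinMat k) A * 2 ^ L ≤ 2 * k ^ 2 * n ^ (2 * k) := by
  classical
  obtain ⟨e, he⟩ := exists_sorted (k := k) hn
  set K := (4 * k + 2) * L + 2 * k + 2 with hK
  let A : BinMat n := fun r c => if adj (e r) (e c) then 0 else 1
  have hA : ∀ r c, A r c = 0 ↔ adj (e r) (e c) := by
    intro r c
    simp only [A]
    split_ifs with h <;> simp [h]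
  refine ⟨A, ?_, ?_⟩
  · have hne : {d : ℕ | ∃ B : BinMat n, numCopies (1 : BinMat k) B = 0 ∧
        numDiff A B = d}.Nonempty := by
      refine ⟨_, 0, ?_, rfl⟩
      unfold numCopies
      rw [Set.ncard_eq_zero (Set.toFinite _), Set.eq_empty_iff_forall_notMem]
      rintro p ⟨-, -, h⟩
      have := h ⟨0, by omega⟩ ⟨0, by omega⟩
      simp at this
    obtain ⟨B, hB, hd⟩ := Nat.sInf_mem hne
    let M : Vx L k t → Vx L k t → Prop := fun v w => B (e.symm v) (e.symm w) = 0
    have hF : Free M := by
      intro ρ γ h1 h2 h3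
      unfold numCopies at hB
      rw [Set.ncard_eq_zero (Set.toFinite _), Set.eq_empty_iff_forall_notMem] at hB
      have sm : ∀ σ : Fin k → Vx L k t, StrictMono (fun i => key (σ i)) →
          StrictMono (fun i => e.symm (σ i)) := by
        intro σ hσ i j hij
        by_contra hcon
        have := he (not_lt.1 hcon)
        simp only [Equiv.apply_symm_apply] at this
        exact absurd this (not_le.2 (hσ hij))
      exact hB (fun i => e.symm (ρ i), fun i => e.symm (γ i))
        ⟨sm ρ h1, sm γ h2, fun i l => fin2_eq.2 (h3 i l)⟩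
    have h1 := card_diff_ge hL ht hF
    have h2 : Set.ncard {p : Vx L k t × Vx L k t | ¬ (M p.1 p.2 ↔ adj p.1 p.2)} ≤
        numDiff A B := by
      unfold numDiff
      refine Set.ncard_le_ncard_of_injOn (fun p => (e.symm p.1, e.symm p.2)) ?_ ?_
        (Set.toFinite _)
      · intro p hp
        simp only [Set.mem_ofPred_eq] at hp ⊢
        intro hAB
        apply hp
        have := hA (e.symm p.1) (e.symm p.2)
        simp only [Equiv.apply_symm_apply] at this
        rw [← this, hAB]
      · intro p _ q _ hpq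
        simp only [Prod.mk.injEq, EmbeddingLike.apply_eq_iff_eq] at hpq
        exact Prod.ext hpq.1 hpq.2
    unfold distFree
    rw [← hd]
    have hKpos : (0 : ℝ) < (K : ℝ) := by
      have : 0 < K := by omega
      exact_mod_cast this
    have hN : (0 : ℝ) < ((2 ^ L * t : ℕ) : ℝ) := by
      have : 0 < 2 ^ L * t := by positivity
      exact_mod_cast this
    have h3 : (((2 ^ L * t : ℕ) : ℝ)) ^ 2 ≤ (numDiff A B : ℝ) := by
      exact_mod_cast h1.trans h2
    have hn' : (n : ℝ) = (K : ℝ) * ((2 ^ L * t : ℕ) : ℝ) := by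
      rw [hn]; push_cast; ring
    rw [hn', div_le_div_iff₀ (by positivity) (by positivity)]
    nlinarith [mul_le_mul_of_nonneg_right h3 (sq_nonneg (K : ℝ))]
  · let T : Fin n → Finset (Fin n) := fun a =>
      Finset.univ.filter fun b => (e b).2.1.val / 2 = (e a).2.1.val / 2
    have hT : ∀ a, (T a).card ≤ K * (2 * t) := by
      intro a
      refine le_trans ?_ (fiber_card (L := L) (k := k) (t := t) ((e a).2.1.val / 2))
      refine Finset.card_le_card_of_injOn e ?_ e.injective.injOn
      intro b hb
      simpa [T] using hb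
    let U : Finset ((Fin k → Fin n) × (Fin k → Fin n)) :=
      (Finset.univ : Finset (Fin k × Fin k)).biUnion fun il =>
        (Finset.univ : Finset (Fin k → Fin n)).biUnion fun r =>
          (Finset.univ.filter fun c : Fin k → Fin n => c il.2 ∈ T (r il.1)).image fun c => (r, c)
    have hU : U.card ≤ k ^ 2 * (n ^ k * (K * (2 * t) * n ^ (k - 1))) := by
      refine (Finset.card_biUnion_le_card_mul _ _
        (n ^ k * (K * (2 * t) * n ^ (k - 1))) ?_).trans ?_
      · intro il _
        refine (Finset.card_biUnion_le_card_mul _ _ (K * (2 * t) * n ^ (k - 1)) ?_).trans ?_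
        · intro r _
          refine Finset.card_image_le.trans ?_
          rw [card_coord_mem]
          exact Nat.mul_le_mul_right _ (hT _)
        · simp
      · simp [sq]
    have hsub : numCopies (1 : BinMat k) A ≤ U.card := by
      unfold numCopies
      rw [← Set.ncard_coe_finset]
      refine Set.ncard_le_ncard ?_ (Set.toFinite _)
      rintro ⟨r, c⟩ ⟨h1, h2, h3⟩
      have hc : WCopy adj (fun i => e (r i)) (fun l => e (c l)) :=
        ⟨he.comp h1.monotone, he.comp h2.monotone, fun i l => by
          rw [← hA]; exact fin2_eq.1 (h3 i l)⟩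
      obtain ⟨i, l, hil⟩ := copy_rare hk hc
      simp only [U, Finset.coe_biUnion, Finset.coe_univ, Set.mem_univ, Set.iUnion_true,
        Set.mem_iUnion, Finset.coe_image, Set.mem_image, Finset.mem_coe, Finset.mem_filter,
        Finset.mem_univ, true_and]
      exact ⟨(i, l), r, c, by simpa [T] using hil.symm, rfl⟩
    have hpow : n ^ (2 * k) = n ^ k * (n * n ^ (k - 1)) := by
      rw [← pow_succ', ← pow_add]
      congr 1
      omega
    calc numCopies (1 : BinMat k) A * 2 ^ L
        ≤ k ^ 2 * (n ^ k * (K * (2 * t) * n ^ (k - 1))) * 2 ^ L :=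
          Nat.mul_le_mul_right _ (hsub.trans hU)
      _ = 2 * k ^ 2 * (n ^ k * (K * (2 ^ L * t) * n ^ (k - 1))) := by ring
      _ = 2 * k ^ 2 * n ^ (2 * k) := by rw [hpow, ← hn]

end Vale.Agent.P037
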